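import Vale.Agent.P207.N4.Dim
import Vale.Agent.P207.N4.H722.GeoIn
import Vale.Agent.P207.N4.H459.Inv
import Vale.Agent.P207.N4.H229.Bus

/-!
# P207, line N3: the discs of the frames and the directions of the geodesics through their points

Over `I : GeoIn L V`: `disc`, the tangent map `tg`, the functional `al` (component along the
geodesic of the frame), `nu`; crossings of the geodesics from `em y` with the disc of `x`.
-/

set_option linter.unusedSectionVars false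

open Set Filter Topology Metric
open scoped ContDiff

noncomputable section

namespace Vale.Agent.P207.N4.H862

open Vale.Agent.P207.N3

variable [Dim]
open Vale.Agent.P207.N4.H76 (pk tl e0 sg)
open Vale.Agent.P207.N4.H722

variable {Γ X B : Type} [Group Γ] [MetricSpace X] [ProperSpace X] [MulAction Γ X]
  [IsIsometricSMul Γ X] [TopologicalSpace B] [CompactSpace B] [T2Space B] [MulAction Γ B]
  [ContinuousConstSMul Γ B] {L : Leaf Γ X B} {V : Type} [NormedAddCommGroup V] [NormedSpace ℝ V]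
  [FiniteDimensional ℝ V] (I : GeoIn L V)

/-- the disc of the frame `x` -/
def disc (x : X) (q : E2) : V := I.S.A x (0, q)

/-- the end of the geodesic from `ξ` through the point `q` of the disc of `x` -/
def en (x : X) (ξ : B) (q : E2) : B := I.S.line ξ (disc I x q)

/-- the Busemann function of `ξ` on the disc of `x` -/
def be (x : X) (ξ : B) (q : E2) : ℝ := I.b ξ (disc I x q) - I.b ξ (I.S.ft x)

/-- the derivative of the tube -/
def DA (x : X) (q : E2) : ℝ × E2 →L[ℝ] V := fderiv ℝ (I.S.A x) (0, q)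

/-- the tangent map of the disc -/
def tg (x : X) (q : E2) : E2 →L[ℝ] V := (DA I x q).comp (ContinuousLinearMap.inr ℝ ℝ E2)

/-- the component along the geodesics from `em x` -/
def al (x : X) (q : E2) : V →L[ℝ] ℝ :=
  (ContinuousLinearMap.fst ℝ ℝ E2).comp (DA I x q).inverse

/-- the component of the direction from `ξ` transversal to the disc of `x` -/
def nu (x : X) (ξ : B) (q : E2) : ℝ :=
  al I x q (I.vel ξ (disc I x q)) - al I (L.flip x) q (I.vel ξ (disc I x q))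

/-! ### the tube -/

theorem mem3 {q : E2} (hq : q ∈ ball (0 : E2) 3) : q ∈ ball (0 : E2) I.S.R :=
  ball_subset_ball I.S.R_gt.le hq

theorem zero_mem : (0 : E2) ∈ ball (0 : E2) I.S.R := I.S.zero_mem

theorem disc_zero (x : X) : disc I x 0 = I.S.ft x := I.S.A_zero x

theorem A_jc2 : JC (fun x (q : E2) => I.S.A x (0, q)) (univ ×ˢ ball 0 I.S.R) := by
  have hS : IsOpen (univ ×ˢ ball (0 : E2) I.S.R : Set (X × E2)) := isOpen_univ.prod isOpen_ball
  have h5 : JC (fun (_ : X) (u : E2) => ((0, u) : ℝ × E2)) (univ ×ˢ ball (0 : E2) I.S.R) :=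
    (JC.const hS 0).prodMk (JC.id hS)
  exact I.S.A_jc.comp' h5 fun p hp => ⟨mem_univ _, mem_univ _, hp.2⟩

theorem disc_jc : JC (disc I) (univ ×ˢ ball 0 I.S.R) := A_jc2 I

theorem DA_jc : JC (DA I) (univ ×ˢ ball 0 I.S.R) := by
  have hS : IsOpen (univ ×ˢ ball (0 : E2) I.S.R : Set (X × E2)) := isOpen_univ.prod isOpen_ball
  have h5 : JC (fun (_ : X) (u : E2) => ((0, u) : ℝ × E2)) (univ ×ˢ ball (0 : E2) I.S.R) :=
    (JC.const hS 0).prodMk (JC.id hS)
  exact I.S.A_jc.fderiv.comp' h5 fun p hp => ⟨mem_univ _, mem_univ _, hp.2⟩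

theorem DA_bij (x : X) {q : E2} (hq : q ∈ ball (0 : E2) I.S.R) :
    Function.Bijective (DA I x q) := I.S.A_der x q hq

theorem DA_inv (x : X) {q : E2} (hq : q ∈ ball (0 : E2) I.S.R) : (DA I x q).IsInvertible :=
  H459.isInvertible_of_bijective (DA_bij I x hq)

theorem al_jc : JC (al I) (univ ×ˢ ball 0 I.S.R) :=
  (JC.const (Z := X) (E := E2) (isOpen_univ.prod isOpen_ball)
    (ContinuousLinearMap.fst ℝ ℝ E2)).clm_comp
    (JC.inverse' (DA_jc I) fun p hp => DA_inv I p.1 hp.2)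

theorem al_DA (x : X) {q : E2} (hq : q ∈ ball (0 : E2) I.S.R) (p : ℝ × E2) :
    al I x q (DA I x q p) = p.1 := by
  obtain ⟨e, he⟩ := DA_inv I x hq
  have h1 : (DA I x q).inverse (DA I x q p) = p := by
    rw [← he, ContinuousLinearMap.inverse_equiv]
    simp
  show ((DA I x q).inverse (DA I x q p)).1 = p.1
  rw [h1]

theorem exists_DA (x : X) {q : E2} (hq : q ∈ ball (0 : E2) I.S.R) (w : V) :
    ∃ p : ℝ × E2, DA I x q p = w := (DA_bij I x hq).2 w

theorem hasDerivAt_A (x : X) (s : ℝ) {q : E2} (hq : q ∈ ball (0 : E2) I.S.R) :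
    HasDerivAt (fun t => I.S.A x (t, q)) (I.vel (L.em x) (I.S.A x (s, q))) s := by
  have h1 := I.S.hasDerivAt_psi H459.invThm (I.S.em x) s (I.S.A x (0, q))
  rw [← I.S.A_psi x s q hq, I.em_eq] at h1
  refine h1.congr_of_eventuallyEq (Eventually.of_forall fun t => ?_)
  show I.S.A x (t, q) = I.S.psi (L.em x) t (I.S.A x (0, q))
  rw [I.S.A_psi x t q hq, I.em_eq]

theorem fderiv_A_one (x : X) (s : ℝ) {q : E2} (hq : q ∈ ball (0 : E2) I.S.R) :
    fderiv ℝ (I.S.A x) (s, q) (1, 0) = I.vel (L.em x) (I.S.A x (s, q)) := by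
  have h1 : HasFDerivAt (I.S.A x) (fderiv ℝ (I.S.A x) (s, q)) (s, q) :=
    (I.S.A_jc.differentiableAt (I.S.mem_S x s hq)).hasFDerivAt
  have h2 : HasDerivAt (fun t : ℝ => ((t, q) : ℝ × E2)) (1, 0) s :=
    (hasDerivAt_id s).prodMk (hasDerivAt_const s _)
  exact (h1.comp_hasDerivAt s (f := fun t : ℝ => ((t, q) : ℝ × E2)) h2).unique
    (hasDerivAt_A I x s hq)

theorem DA_one (x : X) {q : E2} (hq : q ∈ ball (0 : E2) I.S.R) :
    DA I x q (1, 0) = I.vel (L.em x) (disc I x q) := fderiv_A_one I x 0 hq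

theorem DA_zero (x : X) (s : ℝ) (u : E2) : DA I x 0 (s, u) = I.E x (pk s (I.r₀ • u)) :=
  I.A_fderiv x s u

theorem DA_eq (x : X) {q : E2} (hq : q ∈ ball (0 : E2) I.S.R) (s : ℝ) (a : E2) :
    DA I x q (s, a) = s • I.vel (L.em x) (disc I x q) + tg I x q a := by
  have h1 : ((s, a) : ℝ × E2) = s • ((1, 0) : ℝ × E2) + (0, a) := by ext1 <;> simp
  rw [h1, map_add, map_smul, DA_one I x hq]
  rfl

theorem al_vel (x : X) {q : E2} (hq : q ∈ ball (0 : E2) I.S.R) :
    al I x q (I.vel (L.em x) (disc I x q)) = 1 := by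
  rw [← DA_one I x hq, al_DA I x hq]

theorem al_tg (x : X) {q : E2} (hq : q ∈ ball (0 : E2) I.S.R) (a : E2) :
    al I x q (tg I x q a) = 0 := al_DA I x hq (0, a)

theorem tg_inj (x : X) {q : E2} (hq : q ∈ ball (0 : E2) I.S.R) {a : E2}
    (h : tg I x q a = 0) : a = 0 := by
  have h1 : DA I x q (0, a) = DA I x q 0 := by rw [map_zero]; exact h
  exact congrArg Prod.snd ((DA_bij I x hq).1 h1)

theorem exists_tg (x : X) {q : E2} (hq : q ∈ ball (0 : E2) I.S.R) {w : V}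
    (h : al I x q w = 0) : ∃ a, tg I x q a = w := by
  obtain ⟨⟨s, a⟩, rfl⟩ := exists_DA I x hq w
  rw [al_DA I x hq] at h
  have hs : s = 0 := h
  subst hs
  exact ⟨a, rfl⟩

theorem hasFDerivAt_disc (x : X) {q : E2} (hq : q ∈ ball (0 : E2) I.S.R) :
    HasFDerivAt (disc I x) (tg I x q) q := by
  have h1 : HasFDerivAt (I.S.A x) (fderiv ℝ (I.S.A x) (0, q)) (0, q) :=
    (I.S.A_jc.differentiableAt (I.S.mem_S x 0 hq)).hasFDerivAt
  exact h1.comp q (hasFDerivAt_prodMk_right 0 q)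

/-! ### the flip -/

theorem disc_flip (x : X) {q : E2} (hq : q ∈ ball (0 : E2) I.S.R) :
    disc I (L.flip x) q = disc I x q := I.A_flip x q hq

theorem tg_flip (x : X) {q : E2} (hq : q ∈ ball (0 : E2) I.S.R) :
    tg I (L.flip x) q = tg I x q := by
  refine (hasFDerivAt_disc I (L.flip x) hq).unique ?_
  refine (hasFDerivAt_disc I x hq).congr_of_eventuallyEq ?_
  filter_upwards [isOpen_ball.mem_nhds hq] with u hu using disc_flip I x hu

/-- the factor between `al (flip x)` and `al x` -/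
def mf (x : X) (q : E2) : ℝ := al I (L.flip x) q (I.vel (L.em x) (disc I x q))

theorem al_flip (x : X) {q : E2} (hq : q ∈ ball (0 : E2) I.S.R) (w : V) :
    al I (L.flip x) q w = mf I x q * al I x q w := by
  obtain ⟨⟨s, a⟩, rfl⟩ := exists_DA I x hq w
  rw [al_DA I x hq, DA_eq I x hq, map_add, map_smul, ← tg_flip I x hq, al_tg I _ hq, add_zero,
    smul_eq_mul, mul_comm]
  rfl

theorem mf_ne (x : X) {q : E2} (hq : q ∈ ball (0 : E2) I.S.R) : mf I x q ≠ 0 := by
  intro h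
  have h1 := al_vel I (L.flip x) hq
  rw [al_flip I x hq, h, zero_mul] at h1
  exact zero_ne_one h1

theorem mf_zero (x : X) : mf I x 0 = -1 := by
  unfold mf
  have h1 : I.vel (L.em x) (disc I x 0) = -I.E (L.flip x) e0 := by
    rw [disc_zero, I.vel_eq H459.invThm, I.E_flip_e0, neg_neg]
  have h2 : I.E (L.flip x) e0 = I.vel (L.em (L.flip x)) (disc I (L.flip x) 0) := by
    rw [disc_zero, I.vel_eq H459.invThm]
  rw [h1, map_neg, h2, al_vel I (L.flip x) (zero_mem I)]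

theorem vel_cont : Continuous fun p : B × V => I.vel p.1 p.2 := by
  have h := (I.vel_jc H459.invThm).continuousOn
  rwa [continuousOn_univ] at h

theorem disc_cont : ContinuousOn (fun p : X × E2 => disc I p.1 p.2) (univ ×ˢ ball 0 I.S.R) :=
  (disc_jc I).continuousOn

theorem al_cont : ContinuousOn (fun p : X × E2 => al I p.1 p.2) (univ ×ˢ ball 0 I.S.R) :=
  (al_jc I).continuousOn

theorem alv_cont : ContinuousOn (fun p : (X × B) × E2 => al I p.1.1 p.2
    (I.vel p.1.2 (disc I p.1.1 p.2))) (univ ×ˢ ball 0 I.S.R) := by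
  have hm : MapsTo (fun p : (X × B) × E2 => ((p.1.1, p.2) : X × E2)) (univ ×ˢ ball 0 I.S.R)
      (univ ×ˢ ball 0 I.S.R) := fun p hp => ⟨mem_univ _, hp.2⟩
  have h1 : ContinuousOn (fun p : (X × B) × E2 => al I p.1.1 p.2) (univ ×ˢ ball 0 I.S.R) :=
    (al_cont I).comp (f := fun p : (X × B) × E2 => ((p.1.1, p.2) : X × E2)) (by fun_prop) hm
  have h2 : ContinuousOn (fun p : (X × B) × E2 => disc I p.1.1 p.2) (univ ×ˢ ball 0 I.S.R) :=
    (disc_cont I).comp (f := fun p : (X × B) × E2 => ((p.1.1, p.2) : X × E2)) (by fun_prop) hm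
  have h3 : ContinuousOn (fun p : (X × B) × E2 => I.vel p.1.2 (disc I p.1.1 p.2))
      (univ ×ˢ ball 0 I.S.R) :=
    (vel_cont I).comp_continuousOn (f := fun p : (X × B) × E2 => ((p.1.2, disc I p.1.1 p.2) : B × V))
      ((by fun_prop : Continuous fun p : (X × B) × E2 => p.1.2).continuousOn.prodMk h2)
  exact h1.clm_apply h3

theorem alf_cont : ContinuousOn (fun p : (X × B) × E2 => al I (L.flip p.1.1) p.2
    (I.vel p.1.2 (disc I p.1.1 p.2))) (univ ×ˢ ball 0 I.S.R) := by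
  have h1 : Continuous fun p : (X × B) × E2 => (((L.flip p.1.1, p.1.2), p.2) : (X × B) × E2) :=
    ((L.flip_cont.comp (continuous_fst.comp continuous_fst)).prodMk
      (continuous_snd.comp continuous_fst)).prodMk continuous_snd
  have h2 := (alv_cont I).comp (f := fun p : (X × B) × E2 =>
    (((L.flip p.1.1, p.1.2), p.2) : (X × B) × E2)) (s := univ ×ˢ ball 0 I.S.R)
    h1.continuousOn fun p hp => ⟨mem_univ _, hp.2⟩
  refine h2.congr fun p hp => ?_
  show _ = al I (L.flip p.1.1) p.2 (I.vel p.1.2 (disc I (L.flip p.1.1) p.2))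
  rw [disc_flip I _ hp.2]

theorem mf_neg (x : X) {q : E2} (hq : q ∈ ball (0 : E2) I.S.R) : mf I x q < 0 := by
  by_contra hcon
  have hpos : 0 < mf I x q := lt_of_le_of_ne (not_lt.1 hcon) (mf_ne I x hq).symm
  have hc : ContinuousOn (mf I x) (ball (0 : E2) I.S.R) :=
    (alf_cont I).comp (f := fun q : E2 => (((x, L.em x), q) : (X × B) × E2)) (by fun_prop)
      fun u hu => ⟨mem_univ _, hu⟩
  have h1 := (convex_ball (0 : E2) I.S.R).isPreconnected.intermediate_value (zero_mem I) hq hc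
  rw [mf_zero] at h1
  obtain ⟨u, hu, hu0⟩ := h1 (show (0 : ℝ) ∈ Icc (-1) (mf I x q) from ⟨by norm_num, hpos.le⟩)
  exact mf_ne I x hu hu0

theorem nu_eq (x : X) (ξ : B) {q : E2} (hq : q ∈ ball (0 : E2) I.S.R) :
    nu I x ξ q = (1 - mf I x q) * al I x q (I.vel ξ (disc I x q)) := by
  unfold nu
  rw [al_flip I x hq]
  ring

theorem one_sub_mf (x : X) {q : E2} (hq : q ∈ ball (0 : E2) I.S.R) : 0 < 1 - mf I x q := by
  have := mf_neg I x hq
  linarith

theorem nu_nonneg_iff (x : X) (ξ : B) {q : E2} (hq : q ∈ ball (0 : E2) I.S.R) :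
    0 ≤ nu I x ξ q ↔ 0 ≤ al I x q (I.vel ξ (disc I x q)) := by
  rw [nu_eq I x ξ hq]
  exact mul_nonneg_iff_of_pos_left (one_sub_mf I x hq)

theorem nu_pos_iff (x : X) (ξ : B) {q : E2} (hq : q ∈ ball (0 : E2) I.S.R) :
    0 < nu I x ξ q ↔ 0 < al I x q (I.vel ξ (disc I x q)) := by
  rw [nu_eq I x ξ hq]
  exact mul_pos_iff_of_pos_left (one_sub_mf I x hq)

theorem nu_ne_iff (x : X) (ξ : B) {q : E2} (hq : q ∈ ball (0 : E2) I.S.R) :
    nu I x ξ q ≠ 0 ↔ al I x q (I.vel ξ (disc I x q)) ≠ 0 := by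
  rw [nu_eq I x ξ hq, mul_ne_zero_iff]
  exact ⟨fun h => h.2, fun h => ⟨(one_sub_mf I x hq).ne', h⟩⟩

/-! ### fields of `Bus`: `nu` -/

theorem nu_cont : ContinuousOn (fun p : (X × B) × E2 => nu I p.1.1 p.1.2 p.2)
    (univ ×ˢ ball 0 3) :=
  ((alv_cont I).sub (alf_cont I)).mono fun _ hp => ⟨mem_univ _, mem3 I hp.2⟩

theorem nu_em (x : X) : 0 < nu I x (L.em x) 0 := by
  rw [nu_pos_iff I x _ (zero_mem I), al_vel I x (zero_mem I)]
  exact one_pos

theorem nu_en (x : X) (ξ : B) (q : E2) : nu I x (en I x ξ q) q = -nu I x ξ q := by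
  unfold nu en
  rw [I.vel_line H459.invThm, map_neg, map_neg]
  ring

theorem nu_flip (x : X) (ξ : B) {q : E2} (hq : q ∈ ball (0 : E2) 3) :
    nu I (L.flip x) ξ q = -nu I x ξ q := by
  unfold nu
  rw [L.flip_flip, disc_flip I x (mem3 I hq)]
  ring

/-! ### the group -/

theorem act_act (g h : Γ) (q : V) : I.act (g * h) q = I.act g (I.act h q) := by
  obtain ⟨x, -, rfl, -⟩ := I.exists_frame (L.em (Classical.choice L.nonempty)) q
  rw [← I.act_ft, ← I.act_ft, ← I.act_ft, mul_smul]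

theorem act_one (q : V) : I.act 1 q = q := by
  obtain ⟨x, -, rfl, -⟩ := I.exists_frame (L.em (Classical.choice L.nonempty)) q
  rw [← I.act_ft, one_smul]

theorem psi_act (g : Γ) (ξ : B) (s : ℝ) (q : V) :
    I.S.psi (g • ξ) s (I.act g q) = I.act g (I.S.psi ξ s q) := by
  obtain ⟨x, rfl, rfl, -⟩ := I.exists_frame ξ q
  have h1 := I.ft_φ (g • x) s
  rw [L.φ_smul, I.act_ft, L.em_smul, I.act_ft, I.ft_φ] at h1
  exact h1.symm

theorem hasFDerivAt_act (g : Γ) (q : V) : HasFDerivAt (I.act g) (fderiv ℝ (I.act g) q) q :=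
  ((I.act_smooth g).differentiable (by simp)).differentiableAt.hasFDerivAt

theorem vel_act (g : Γ) (ξ : B) (q : V) :
    I.vel (g • ξ) (I.act g q) = fderiv ℝ (I.act g) q (I.vel ξ q) := by
  have h1 := I.S.hasDerivAt_psi H459.invThm (g • ξ) 0 (I.act g q)
  have h2 := I.S.hasDerivAt_psi H459.invThm ξ 0 q
  rw [I.S.psi_zero] at h1 h2
  have h3 : HasFDerivAt (I.act g) (fderiv ℝ (I.act g) q) (I.S.psi ξ 0 q) := by
    rw [I.S.psi_zero]; exact hasFDerivAt_act I g q
  have h4 := h3.comp_hasDerivAt (0 : ℝ) h2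
  refine h1.unique (h4.congr_of_eventuallyEq (Eventually.of_forall fun t => ?_))
  show I.S.psi (g • ξ) t (I.act g q) = I.act g (I.S.psi ξ t q)
  exact psi_act I g ξ t q

theorem E_act (g : Γ) (x : X) : I.E (g • x) e0 = fderiv ℝ (I.act g) (I.S.ft x) (I.E x e0) := by
  rw [← I.vel_eq H459.invThm, ← I.vel_eq H459.invThm, L.em_smul, I.act_ft, vel_act]

theorem G_sq (q v : V) (c : ℝ) : I.G q (c • v) (c • v) = c * c * I.G q v v := by
  rw [(I.G q).map_smul c v]
  show c • ((I.G q v) (c • v)) = _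
  rw [(I.G q v).map_smul, smul_eq_mul, smul_eq_mul, mul_assoc]

/-- the group acts by isometries -/
theorem act_iso (g : Γ) (q v : V) :
    I.G (I.act g q) (fderiv ℝ (I.act g) q v) (fderiv ℝ (I.act g) q v) = I.G q v v := by
  rcases eq_or_ne v 0 with rfl | hv
  · simp
  have hpos := I.G_pos q v hv
  set c : ℝ := Real.sqrt (I.G q v v) with hc
  have hc0 : 0 < c := Real.sqrt_pos.2 hpos
  have hcc : c * c = I.G q v v := Real.mul_self_sqrt hpos.le
  have h1 : I.G q (c⁻¹ • v) (c⁻¹ • v) = 1 := by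
    rw [G_sq, ← hcc]
    field_simp
  obtain ⟨x, rfl, hx⟩ := I.vec_surj q _ h1
  have h2 : v = c • I.E x e0 := by
    rw [hx, smul_smul, mul_inv_cancel₀ hc0.ne', one_smul]
  have h3 : fderiv ℝ (I.act g) (I.S.ft x) v = c • I.E (g • x) e0 := by
    rw [E_act, ← map_smul, ← h2]
  rw [h3, ← hcc, ← I.act_ft, G_sq, I.G_E, real_inner_self_eq_norm_sq, H76.norm_e0]
  ring

/-- what is used of the discs besides `GeoIn` -/
structure DiscX : Prop where
  rot : ∀ a x, ∀ q ∈ ball (0 : E2) 3, I.S.A (L.rot a x) (0, q) = I.S.A x (0, a q)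
  smul : ∀ (g : Γ) x, ∀ q ∈ ball (0 : E2) 3, I.S.A (g • x) (0, q) = I.act g (I.S.A x (0, q))

variable {I}

theorem A_smul (hX : DiscX I) (g : Γ) (x : X) (s : ℝ) {q : E2} (hq : q ∈ ball (0 : E2) 3) :
    I.S.A (g • x) (s, q) = I.act g (I.S.A x (s, q)) := by
  rw [I.S.A_psi _ _ _ (mem3 I hq), I.S.A_psi x _ _ (mem3 I hq), hX.smul g x q hq, I.em_eq,
    I.em_eq, L.em_smul, psi_act]

theorem A_rot (hX : DiscX I) (a : O2) (x : X) (s : ℝ) {q : E2} (hq : q ∈ ball (0 : E2) 3) :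
    I.S.A (L.rot a x) (s, q) = I.S.A x (s, a q) := by
  have haq : a q ∈ ball (0 : E2) 3 := by
    rw [mem_ball_zero_iff, LinearIsometryEquiv.norm_map]
    rwa [mem_ball_zero_iff] at hq
  rw [I.S.A_psi _ _ _ (mem3 I hq), I.S.A_psi x _ _ (mem3 I haq), hX.rot a x q hq, I.em_eq,
    I.em_eq, L.em_rot]

theorem rot_mem (a : O2) {q : E2} (hq : q ∈ ball (0 : E2) 3) : a q ∈ ball (0 : E2) 3 := by
  rw [mem_ball_zero_iff, LinearIsometryEquiv.norm_map]
  rwa [mem_ball_zero_iff] at hq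

theorem disc_smul (hX : DiscX I) (g : Γ) (x : X) {q : E2} (hq : q ∈ ball (0 : E2) 3) :
    disc I (g • x) q = I.act g (disc I x q) := A_smul hX g x 0 hq

theorem disc_rot (hX : DiscX I) (a : O2) (x : X) {q : E2} (hq : q ∈ ball (0 : E2) 3) :
    disc I (L.rot a x) q = disc I x (a q) := A_rot hX a x 0 hq

theorem DA_smul (hX : DiscX I) (g : Γ) (x : X) {q : E2} (hq : q ∈ ball (0 : E2) 3)
    (p : ℝ × E2) : DA I (g • x) q p = fderiv ℝ (I.act g) (disc I x q) (DA I x q p) := by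
  have h1 : HasFDerivAt (I.S.A (g • x)) (DA I (g • x) q) (0, q) :=
    (I.S.A_jc.differentiableAt (I.S.mem_S _ 0 (mem3 I hq))).hasFDerivAt
  have h2 : HasFDerivAt (I.S.A x) (DA I x q) (0, q) :=
    (I.S.A_jc.differentiableAt (I.S.mem_S _ 0 (mem3 I hq))).hasFDerivAt
  have h3 : HasFDerivAt (fun p => I.act g (I.S.A x p))
      ((fderiv ℝ (I.act g) (disc I x q)).comp (DA I x q)) (0, q) :=
    HasFDerivAt.comp ((0, q) : ℝ × E2) (hasFDerivAt_act I g (disc I x q)) h2
  have h4 : I.S.A (g • x) =ᶠ[𝓝 (0, q)] fun p => I.act g (I.S.A x p) := by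
    have h5 : ∀ᶠ p : ℝ × E2 in 𝓝 (0, q), p.2 ∈ ball (0 : E2) 3 :=
      continuous_snd.continuousAt.eventually (isOpen_ball.mem_nhds hq)
    filter_upwards [h5] with p hp using A_smul hX g x p.1 hp
  have h6 := h1.unique (h3.congr_of_eventuallyEq h4)
  rw [h6]
  rfl

theorem DA_rot (hX : DiscX I) (a : O2) (x : X) {q : E2} (hq : q ∈ ball (0 : E2) 3) (s : ℝ)
    (b : E2) : DA I (L.rot a x) q (s, b) = DA I x (a q) (s, a b) := by
  have h1 : HasFDerivAt (I.S.A (L.rot a x)) (DA I (L.rot a x) q) (0, q) :=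
    (I.S.A_jc.differentiableAt (I.S.mem_S _ 0 (mem3 I hq))).hasFDerivAt
  have h2 : HasFDerivAt (I.S.A x) (DA I x (a q)) (0, a q) :=
    (I.S.A_jc.differentiableAt (I.S.mem_S _ 0 (mem3 I (rot_mem a hq)))).hasFDerivAt
  have h3 : HasFDerivAt (fun p : ℝ × E2 => ((p.1, a p.2) : ℝ × E2))
      ((ContinuousLinearMap.id ℝ ℝ).prodMap (a.toContinuousLinearEquiv : E2 →L[ℝ] E2)) (0, q) :=
    ((ContinuousLinearMap.id ℝ ℝ).prodMap (a.toContinuousLinearEquiv : E2 →L[ℝ] E2)).hasFDerivAt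
  have h3' : HasFDerivAt (fun p : ℝ × E2 => I.S.A x (p.1, a p.2))
      ((DA I x (a q)).comp ((ContinuousLinearMap.id ℝ ℝ).prodMap
        (a.toContinuousLinearEquiv : E2 →L[ℝ] E2))) (0, q) :=
    HasFDerivAt.comp ((0, q) : ℝ × E2) h2 h3
  have h4 : I.S.A (L.rot a x) =ᶠ[𝓝 (0, q)] fun p => I.S.A x (p.1, a p.2) := by
    have h5 : ∀ᶠ p : ℝ × E2 in 𝓝 (0, q), p.2 ∈ ball (0 : E2) 3 :=
      continuous_snd.continuousAt.eventually (isOpen_ball.mem_nhds hq)
    filter_upwards [h5] with p hp using A_rot hX a x p.1 hp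
  have h6 := h1.unique (h3'.congr_of_eventuallyEq h4)
  rw [h6]
  rfl

theorem al_smul (hX : DiscX I) (g : Γ) (x : X) {q : E2} (hq : q ∈ ball (0 : E2) 3) (w : V) :
    al I (g • x) q (fderiv ℝ (I.act g) (disc I x q) w) = al I x q w := by
  obtain ⟨p, rfl⟩ := exists_DA I x (mem3 I hq) w
  rw [← DA_smul hX g x hq, al_DA I _ (mem3 I hq), al_DA I _ (mem3 I hq)]

theorem al_rot (hX : DiscX I) (a : O2) (x : X) {q : E2} (hq : q ∈ ball (0 : E2) 3) :
    al I (L.rot a x) q = al I x (a q) := by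
  ext w
  obtain ⟨⟨s, b⟩, rfl⟩ := exists_DA I (L.rot a x) (mem3 I hq) w
  rw [al_DA I _ (mem3 I hq), DA_rot hX a x hq, al_DA I _ (mem3 I (rot_mem a hq))]

theorem nu_smul (hX : DiscX I) (g : Γ) (x : X) (ξ : B) {q : E2} (hq : q ∈ ball (0 : E2) 3) :
    nu I (g • x) (g • ξ) q = nu I x ξ q := by
  unfold nu
  have h1 : disc I x q = disc I (L.flip x) q := (disc_flip I x (mem3 I hq)).symm
  rw [disc_smul hX g x hq, vel_act, al_smul hX g x hq, L.flip_smul]
  congr 1
  rw [h1, al_smul hX g (L.flip x) hq]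

theorem nu_rot (hX : DiscX I) (a : O2) (x : X) (ξ : B) {q : E2} (hq : q ∈ ball (0 : E2) 3) :
    nu I (L.rot a x) ξ q = nu I x ξ (a q) := by
  unfold nu
  rw [L.flip_rot, al_rot hX a x hq, al_rot hX a (L.flip x) hq, disc_rot hX a x hq]

end Vale.Agent.P207.N4.H862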