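import Vale.Agent.P207.N4.Dim
import Vale.Agent.P207.N4.H862.BusNu
import Vale.Agent.P207.N4.H265.GeoX

/-!
# P207, line N3: the fields `sg_jc`, `sg_inv`, `cov_inj`, `cov_surj` of `Bus`

Crossings of the geodesics from `em y` with the disc of `x`; the covectors on the discs.
-/

set_option linter.unusedSectionVars false

open Set Filter Topology Metric
open scoped ContDiff

noncomputable section

namespace Vale.Agent.P207.N4.H862

open Vale.Agent.P207.N3

variable [Dim]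
open Vale.Agent.P207.N4.H76 (pk tl e0 sg)
open Vale.Agent.P207.N4.H722

variable {Γ X B : Type} [Group Γ] [MetricSpace X] [ProperSpace X] [MulAction Γ X]
  [IsIsometricSMul Γ X] [TopologicalSpace B] [CompactSpace B] [T2Space B] [MulAction Γ B]
  [ContinuousConstSMul Γ B] {L : Leaf Γ X B} {V : Type} [NormedAddCommGroup V] [NormedSpace ℝ V]
  [FiniteDimensional ℝ V] (I : GeoIn L V)

theorem DiscX.of_geoX {I : GeoIn L V} (hX : GeoX I) : DiscX I :=
  ⟨fun a x q _ => hX.A_rot a x 0 q, fun g x q _ => hX.A_smul g x (0, q)⟩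

/-! ### crossings -/

theorem e_eq_en (y : X) {v : E2} (hv : v ∈ closedBall (0 : E2) 3) :
    L.e y v = en I y (L.em y) v := by
  rw [← I.e_eq y v hv]
  show I.S.line (I.S.em y) (I.S.A y (0, v)) = I.S.line (L.em y) (I.S.A y (0, v))
  rw [I.em_eq]

theorem e_iff (x y : X) {v : E2} (hv : v ∈ closedBall (0 : E2) 3) (q : E2) :
    L.e y v = en I x (L.em y) q ↔ ∃ s, I.S.A y (s, v) = disc I x q := by
  rw [e_eq_en I y hv]
  unfold en
  rw [I.S.line_iff]
  refine exists_congr fun s => ?_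
  have h1 := I.S.A_psi y s v (I.S.mem_R hv)
  rw [I.em_eq] at h1
  unfold disc
  rw [← h1, eq_comm]

theorem sgm_eq (x y : X) {v q : E2} (hv : v ∈ closedBall (0 : E2) 3)
    (h : L.e y v = en I x (L.em y) q) : sgm L (en I) x y q = v := by
  unfold sgm
  rw [← h]
  exact (L.e_inj y).leftInvOn_invFunOn hv

/-- the local form of the crossings -/
theorem sg_local {x₀ y₀ : X} {q₀ : E2} (h : ((x₀, y₀), q₀) ∈ sgD L (en I)) :
    ∃ (T : Set ((X × X) × E2)) (G : X × X → E2 → ℝ × E2), JC G T ∧ ((x₀, y₀), q₀) ∈ T ∧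
      ∀ p ∈ T, p ∈ sgD L (en I) ∧ sgm L (en I) p.1.1 p.1.2 p.2 = (G p.1 p.2).2 ∧
        (G p.1 p.2).2 ∈ ball (0 : E2) 3 ∧ I.S.A p.1.2 (G p.1 p.2) = disc I p.1.1 p.2 := by
  obtain ⟨hq, v₀, hv, he⟩ := h
  obtain ⟨s₀, hs⟩ := (e_iff I x₀ y₀ (ball_subset_closedBall hv) q₀).1 he
  obtain ⟨T, G, h1, h2, h3, h4⟩ := I.S.cross H459.invThm (mem3 I hq) (mem3 I hv) hs
  have hO : IsOpen (T ∩ (fun p : (X × X) × E2 => G p.1 p.2) ⁻¹' {z | z.2 ∈ ball (0 : E2) 3}) :=
    h1.continuousOn.isOpen_inter_preimage h1.isOpen (isOpen_ball.preimage continuous_snd)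
  have hO2 : IsOpen ((T ∩ (fun p : (X × X) × E2 => G p.1 p.2) ⁻¹' {z | z.2 ∈ ball (0 : E2) 3}) ∩
      {p | p.2 ∈ ball (0 : E2) 3}) := hO.inter (isOpen_ball.preimage continuous_snd)
  refine ⟨_, G, h1.mono hO2 fun p hp => hp.1.1, ⟨⟨h2, ?_⟩, hq⟩, ?_⟩
  · change (G (x₀, y₀) q₀).2 ∈ ball (0 : E2) 3
    rw [h3]
    exact hv
  · rintro p ⟨⟨hp1, hp2⟩, hp3⟩
    obtain ⟨-, -, h7⟩ := h4 p hp1
    have h8 : (G p.1 p.2).2 ∈ ball (0 : E2) 3 := hp2
    have h9 : L.e p.1.2 (G p.1 p.2).2 = en I p.1.1 (L.em p.1.2) p.2 :=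
      (e_iff I p.1.1 p.1.2 (ball_subset_closedBall h8) p.2).2 ⟨(G p.1 p.2).1, h7⟩
    exact ⟨⟨hp3, _, h8, h9⟩, sgm_eq I _ _ (ball_subset_closedBall h8) h9, h8, h7⟩

theorem isOpen_sgD : IsOpen (sgD L (en I)) := by
  rw [isOpen_iff_mem_nhds]
  rintro ⟨⟨x, y⟩, q⟩ hp
  obtain ⟨T, G, h1, h2, h3⟩ := sg_local I hp
  filter_upwards [h1.isOpen.mem_nhds h2] with p hp' using (h3 p hp').1

theorem sg_jc : JC (fun (p : X × X) q => sgm L (en I) p.1 p.2 q) (sgD L (en I)) := by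
  refine JC.of_local (isOpen_sgD I) ?_
  rintro ⟨⟨x, y⟩, q⟩ hp
  obtain ⟨T, G, h1, h2, h3⟩ := sg_local I hp
  exact ⟨T, h2, h1.snd.congr fun p hp' => (h3 p hp').2.1⟩

theorem sg_inv (x y : X) (q : E2) (h : ((x, y), q) ∈ sgD L (en I))
    (hnu : nu I x (L.em y) q ≠ 0) : (fderiv ℝ (sgm L (en I) x y) q).IsInvertible := by
  have hq : q ∈ ball (0 : E2) I.S.R := mem3 I h.1
  obtain ⟨T, G, h1, h2, h3⟩ := sg_local I h
  have hT := (isOpen_slice h1.isOpen (x, y)).mem_nhds h2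
  have hG : HasFDerivAt (G (x, y)) (fderiv ℝ (G (x, y)) q) q := h1.hasFDerivAt h2
  have h4 : sgm L (en I) x y =ᶠ[𝓝 q] fun u => (G (x, y) u).2 := by
    filter_upwards [hT] with u hu using (h3 _ hu).2.1
  have h5 : HasFDerivAt (sgm L (en I) x y)
      ((ContinuousLinearMap.snd ℝ ℝ E2).comp (fderiv ℝ (G (x, y)) q)) q :=
    ((ContinuousLinearMap.snd ℝ ℝ E2).hasFDerivAt.comp q hG).congr_of_eventuallyEq h4
  have hv : (G (x, y) q).2 ∈ ball (0 : E2) I.S.R := mem3 I (h3 _ h2).2.2.1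
  have hA : HasFDerivAt (I.S.A y) (fderiv ℝ (I.S.A y) (G (x, y) q)) (G (x, y) q) :=
    (I.S.A_jc.differentiableAt (p := (y, G (x, y) q))
      ⟨mem_univ _, mem_univ _, hv⟩).hasFDerivAt
  have h6 : HasFDerivAt (fun u => I.S.A y (G (x, y) u))
      ((fderiv ℝ (I.S.A y) (G (x, y) q)).comp (fderiv ℝ (G (x, y)) q)) q := hA.comp q hG
  have h7 : (fun u => I.S.A y (G (x, y) u)) =ᶠ[𝓝 q] disc I x := by
    filter_upwards [hT] with u hu using (h3 _ hu).2.2.2
  have h8 : (fderiv ℝ (I.S.A y) (G (x, y) q)).comp (fderiv ℝ (G (x, y)) q) = tg I x q :=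
    (h6.congr_of_eventuallyEq h7.symm).unique (hasFDerivAt_disc I x hq)
  have h9 : fderiv ℝ (I.S.A y) (G (x, y) q) (1, 0) = I.vel (L.em y) (disc I x q) := by
    have h10 := fderiv_A_one I y (G (x, y) q).1 hv
    rw [Prod.mk.eta] at h10
    rw [h10]
    congr 1
    exact (h3 _ h2).2.2.2
  rw [h5.fderiv]
  have hinj : Function.Injective
      ((ContinuousLinearMap.snd ℝ ℝ E2).comp (fderiv ℝ (G (x, y)) q)) := by
    rw [injective_iff_map_eq_zero]
    intro a ha
    have ha' : (fderiv ℝ (G (x, y)) q a).2 = 0 := ha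
    have h10 : fderiv ℝ (G (x, y)) q a = (fderiv ℝ (G (x, y)) q a).1 • ((1, 0) : ℝ × E2) := by
      ext1
      · simp
      · rw [ha']; simp
    have h11 : tg I x q a =
        (fderiv ℝ (G (x, y)) q a).1 • I.vel (L.em y) (disc I x q) := by
      rw [← h8, ContinuousLinearMap.comp_apply, h10, map_smul, h9]
      simp
    have h12 := congrArg (al I x q) h11
    rw [al_tg I x hq, map_smul, smul_eq_mul] at h12
    have h13 : (fderiv ℝ (G (x, y)) q a).1 = 0 := by
      rcases mul_eq_zero.1 h12.symm with h | h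
      · exact h
      · exact absurd h ((nu_ne_iff I x _ hq).1 hnu)
    rw [h13, zero_smul] at h11
    exact tg_inj I x hq h11
  exact H459.isInvertible_of_bijective ⟨hinj, (LinearMap.injective_iff_surjective
    (f := ((ContinuousLinearMap.snd ℝ ℝ E2).comp (fderiv ℝ (G (x, y)) q)).toLinearMap)).1 hinj⟩

/-! ### covectors -/

theorem hasFDerivAt_be (x : X) (ξ : B) {q : E2} (hq : q ∈ ball (0 : E2) I.S.R) :
    HasFDerivAt (be I x ξ) ((I.G (disc I x q) (I.vel ξ (disc I x q))).comp (tg I x q)) q := by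
  have h1 := (I.b_hasFDerivAt H459.invThm ξ (disc I x q)).comp q (hasFDerivAt_disc I x hq)
  exact h1.sub_const _

theorem gradient_be (x : X) (ξ : B) {q : E2} (hq : q ∈ ball (0 : E2) I.S.R) (a : E2) :
    inner ℝ (gradient (be I x ξ) q) a
      = I.G (disc I x q) (I.vel ξ (disc I x q)) (tg I x q a) := by
  unfold gradient
  rw [InnerProductSpace.toDual_symm_apply, (hasFDerivAt_be I x ξ hq).fderiv]
  rfl

theorem cov_inj (x : X) (ξ ξ' : B) {q : E2} (hq : q ∈ ball (0 : E2) 3)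
    (h : 0 ≤ nu I x ξ q) (h' : 0 ≤ nu I x ξ' q)
    (hg : gradient (be I x ξ) q = gradient (be I x ξ') q) : ξ = ξ' := by
  have hR := mem3 I hq
  rw [nu_nonneg_iff I x _ hR] at h h'
  set d := disc I x q with hd
  set w := I.vel ξ d with hw
  set w' := I.vel ξ' d with hw'
  have h1 : ∀ a, I.G d (w - w') (tg I x q a) = 0 := by
    intro a
    rw [map_sub, sub_apply, hw, hw', hd, ← gradient_be I x ξ hR,
      ← gradient_be I x ξ' hR, hg, sub_self]
  have h2 : I.G d (w - w') (w + w') = 0 := by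
    have e1 := I.G_vel H459.invThm ξ d
    have e2 := I.G_vel H459.invThm ξ' d
    have e3 := I.G_symm d w w'
    rw [← hw] at e1
    rw [← hw'] at e2
    rw [map_sub, sub_apply, map_add, map_add]
    linarith
  have h3 : I.G d (w - w') (w - w') = 0 := by
    by_cases hs : al I x q (w + w') = 0
    · rw [map_add] at hs
      have e1 : al I x q w = 0 := by linarith
      have e2 : al I x q w' = 0 := by linarith
      obtain ⟨a, ha⟩ := exists_tg I x hR (w := w - w') (by rw [map_sub, e1, e2, sub_zero])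
      have e3 := h1 a
      rwa [ha] at e3
    · set c : ℝ := al I x q (w - w') / al I x q (w + w') with hc
      obtain ⟨a, ha⟩ := exists_tg I x hR (w := (w - w') - c • (w + w')) (by
        rw [map_sub, map_smul, smul_eq_mul, hc, div_mul_cancel₀ _ hs, sub_self])
      have e3 := h1 a
      rw [ha, map_sub, map_smul, h2, smul_zero, sub_zero] at e3
      exact e3
  have h4 : w - w' = 0 := by
    by_contra hne
    exact (I.G_pos d _ hne).ne' h3
  exact I.vel_inj H459.invThm (sub_eq_zero.1 h4)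

/-- the metric of the disc, as a function of the frame, the point and the vector -/
theorem gm_cont : ContinuousOn (fun p : (X × E2) × E2 =>
    I.G (disc I p.1.1 p.1.2) (tg I p.1.1 p.1.2 p.2) (tg I p.1.1 p.1.2 p.2))
    ((univ ×ˢ ball 0 I.S.R) ×ˢ univ) := by
  have h1 : ContinuousOn (fun p : (X × E2) × E2 => disc I p.1.1 p.1.2)
      ((univ ×ˢ ball 0 I.S.R) ×ˢ univ) :=
    (disc_cont I).comp (f := fun p : (X × E2) × E2 => p.1) continuous_fst.continuousOn
      fun p hp => hp.1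
  have h2 : ContinuousOn (fun p : (X × E2) × E2 => DA I p.1.1 p.1.2)
      ((univ ×ˢ ball 0 I.S.R) ×ˢ univ) :=
    (DA_jc I).continuousOn.comp (f := fun p : (X × E2) × E2 => p.1) continuous_fst.continuousOn
      fun p hp => hp.1
  have h3 : ContinuousOn (fun p : (X × E2) × E2 => tg I p.1.1 p.1.2 p.2)
      ((univ ×ˢ ball 0 I.S.R) ×ˢ univ) := by
    have h4 : ContinuousOn (fun p : (X × E2) × E2 => DA I p.1.1 p.1.2 ((0, p.2) : ℝ × E2))
        ((univ ×ˢ ball 0 I.S.R) ×ˢ univ) := h2.clm_apply (by fun_prop)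
    exact h4
  have h5 : ContinuousOn (fun p : (X × E2) × E2 => I.G (disc I p.1.1 p.1.2))
      ((univ ×ˢ ball 0 I.S.R) ×ˢ univ) := I.G_smooth.continuous.comp_continuousOn h1
  exact (h5.clm_apply h3).clm_apply h3

/-- the metrics of the discs are uniformly positive -/
theorem exists_gm {I : GeoIn L V} (hX : GeoX I) : ∃ c > 0, ∀ x, ∀ q ∈ ball (0 : E2) 3, ∀ a,
    c * (‖a‖ * ‖a‖) ≤ I.G (disc I x q) (tg I x q a) (tg I x q a) := by
  obtain ⟨K, hK, hcov⟩ := L.cocompact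
  have hD := DiscX.of_geoX hX
  have hcomp : IsCompact ((K ×ˢ closedBall (0 : E2) 3) ×ˢ sphere (0 : E2) 1) :=
    (hK.prod (isCompact_closedBall _ _)).prod (isCompact_sphere _ _)
  have hsub : ((K ×ˢ closedBall (0 : E2) 3) ×ˢ sphere (0 : E2) 1) ⊆
      ((univ ×ˢ ball 0 I.S.R) ×ˢ univ : Set ((X × E2) × E2)) := fun p hp =>
    ⟨⟨mem_univ _, I.S.mem_R hp.1.2⟩, mem_univ _⟩
  obtain ⟨c, hc, hc'⟩ := hcomp.exists_forall_le' ((gm_cont I).mono hsub) (a := 0) (by
    rintro ⟨⟨x, q⟩, a⟩ ⟨⟨-, hq⟩, ha⟩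
    refine I.G_pos _ _ fun h0 => ?_
    have h1 : a = 0 := tg_inj I x (I.S.mem_R hq) h0
    rw [h1] at ha
    simp at ha)
  refine ⟨c, hc, fun x q hq a => ?_⟩
  rcases eq_or_ne a 0 with rfl | ha
  · simp
  have hna : ‖a‖ ≠ 0 := norm_ne_zero_iff.2 ha
  -- the compact set of frames
  have key : ∀ b : E2, ‖b‖ = 1 → c ≤ I.G (disc I x q) (tg I x q b) (tg I x q b) := by
    intro b hb
    obtain ⟨g, hg⟩ := hcov x
    have h1 := hc' ((g • x, q), b) ⟨⟨hg, ball_subset_closedBall hq⟩, by simpa using hb⟩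
    have h2 : tg I (g • x) q b = fderiv ℝ (I.act g) (disc I x q) (tg I x q b) :=
      DA_smul hD g x hq (0, b)
    simp only at h1
    rw [h2, disc_smul hD g x hq, hX.act_iso] at h1
    exact h1
  have h3 := key (‖a‖⁻¹ • a) (by rw [norm_smul, norm_inv, norm_norm, inv_mul_cancel₀ hna])
  rw [map_smul, G_sq] at h3
  have h4 : 0 < ‖a‖ * ‖a‖ := by positivity
  calc c * (‖a‖ * ‖a‖) ≤ (‖a‖⁻¹ * ‖a‖⁻¹ * I.G (disc I x q) (tg I x q a) (tg I x q a)) *
        (‖a‖ * ‖a‖) := mul_le_mul_of_nonneg_right h3 h4.le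
    _ = I.G (disc I x q) (tg I x q a) (tg I x q a) := by field_simp

/-- representation of the covectors of the disc by tangent vectors -/
theorem exists_rep (x : X) {q : E2} (hq : q ∈ ball (0 : E2) I.S.R) (f : E2 →L[ℝ] ℝ) :
    ∃ a, ∀ b, I.G (disc I x q) (tg I x q a) (tg I x q b) = f b := by
  set M : E2 →ₗ[ℝ] (E2 →L[ℝ] ℝ) :=
    { toFun := fun a => (I.G (disc I x q) (tg I x q a)).comp (tg I x q)
      map_add' := fun a b => by rw [map_add, map_add, ContinuousLinearMap.add_comp]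
      map_smul' := fun c a => by
        rw [map_smul, map_smul, ContinuousLinearMap.smul_comp, RingHom.id_apply] } with hM
  set N : E2 →ₗ[ℝ] E2 :=
    ((InnerProductSpace.toDual ℝ E2).symm.toLinearEquiv.toLinearMap).comp M with hN
  have hNe : ∀ a b, inner ℝ (N a) b = I.G (disc I x q) (tg I x q a) (tg I x q b) := by
    intro a b
    show inner ℝ ((InnerProductSpace.toDual ℝ E2).symm (M a)) b = _
    rw [InnerProductSpace.toDual_symm_apply]
    rfl
  have hinj : Function.Injective N := by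
    rw [injective_iff_map_eq_zero]
    intro a ha
    by_contra hne
    have h1 : tg I x q a ≠ 0 := fun h0 => hne (tg_inj I x hq h0)
    have h2 := I.G_pos (disc I x q) _ h1
    rw [← hNe, ha, inner_zero_left] at h2
    exact lt_irrefl _ h2
  obtain ⟨a, ha⟩ := (LinearMap.injective_iff_surjective.1 hinj)
    ((InnerProductSpace.toDual ℝ E2).symm f)
  refine ⟨a, fun b => ?_⟩
  rw [← hNe, ha, InnerProductSpace.toDual_symm_apply]

theorem exists_cov {I : GeoIn L V} {x : X} {q : E2} (hq : q ∈ ball (0 : E2) 3) {c : ℝ}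
    (hc : 0 < c)
    (hgm : ∀ a, c * (‖a‖ * ‖a‖) ≤ I.G (disc I x q) (tg I x q a) (tg I x q a)) {π : E2}
    (hπ : ‖π‖ < Real.sqrt c) : ∃ ξ, 0 < nu I x ξ q ∧ gradient (be I x ξ) q = π := by
  have hR := mem3 I hq
  set d := disc I x q with hd
  -- the tangential part
  obtain ⟨a₀, ha₀⟩ := exists_rep I x hR (innerSL ℝ π)
  rw [← hd] at ha₀
  have h0 : I.G d (tg I x q a₀) (tg I x q a₀) < 1 := by
    have e1 := hgm a₀
    have e2 : I.G d (tg I x q a₀) (tg I x q a₀) ≤ ‖π‖ * ‖a₀‖ := by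
      rw [ha₀]
      exact real_inner_le_norm π a₀
    rcases eq_or_ne a₀ 0 with h | h
    · rw [h, map_zero]; simp
    have hpos : 0 < ‖a₀‖ := norm_pos_iff.2 h
    have e3 : c * ‖a₀‖ ≤ ‖π‖ := by
      have : c * ‖a₀‖ * ‖a₀‖ ≤ ‖π‖ * ‖a₀‖ := by linarith [e1.trans e2]
      exact le_of_mul_le_mul_right this hpos
    have hs := Real.mul_self_sqrt hc.le
    have hsp : 0 < Real.sqrt c := Real.sqrt_pos.2 hc
    have e4 : Real.sqrt c * ‖a₀‖ < 1 := by
      have e5 : Real.sqrt c * (Real.sqrt c * ‖a₀‖) < Real.sqrt c * 1 := by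
        rw [← mul_assoc, hs, mul_one]
        exact e3.trans_lt hπ
      exact lt_of_mul_lt_mul_left e5 hsp.le
    calc I.G d (tg I x q a₀) (tg I x q a₀) ≤ ‖π‖ * ‖a₀‖ := e2
      _ ≤ Real.sqrt c * ‖a₀‖ := mul_le_mul_of_nonneg_right hπ.le hpos.le
      _ < 1 := e4
  -- the normal
  obtain ⟨a₁, ha₁⟩ := exists_rep I x hR
    ((I.G d (I.vel (L.em x) d)).comp (tg I x q))
  rw [← hd] at ha₁
  set n := I.vel (L.em x) d - tg I x q a₁ with hn
  have hn1 : ∀ b, I.G d n (tg I x q b) = 0 := by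
    intro b
    rw [hn, map_sub, sub_apply, ha₁]
    exact sub_self _
  have haln : al I x q n = 1 := by
    rw [hn, map_sub, al_tg I x hR, sub_zero, hd, al_vel I x hR]
  have hn0 : n ≠ 0 := by
    intro h
    rw [h, map_zero] at haln
    exact zero_ne_one haln
  have hnn := I.G_pos d n hn0
  set N : ℝ := I.G d n n with hN
  set A : ℝ := I.G d (tg I x q a₀) (tg I x q a₀) with hA
  set t : ℝ := Real.sqrt ((1 - A) / N) with ht
  have htp : 0 < (1 - A) / N := div_pos (by linarith) hnn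
  have ht0 : 0 < t := Real.sqrt_pos.2 htp
  have htt : t * t = (1 - A) / N := Real.mul_self_sqrt htp.le
  set w := tg I x q a₀ + t • n with hw
  have hGn : I.G d (t • n) = t • I.G d n := map_smul _ _ _
  have hGw : I.G d w = I.G d (tg I x q a₀) + t • I.G d n := by rw [hw, map_add, hGn]
  have hww : I.G d w w = 1 := by
    have e1 : I.G d (tg I x q a₀) n = 0 := by rw [I.G_symm, hn1]
    have e2 : ∀ v, I.G d w v = I.G d (tg I x q a₀) v + t * I.G d n v := fun v => by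
      rw [hGw]; rfl
    have e3 : I.G d w (tg I x q a₀) = A := by rw [e2, hn1, mul_zero, add_zero]
    have e4 : I.G d w n = t * N := by rw [e2, e1, zero_add]
    have e5 : I.G d w w = I.G d w (tg I x q a₀) + t * I.G d w n := by
      conv_lhs => rw [hw]
      rw [← hw, map_add, map_smul, smul_eq_mul]
    rw [e5, e3, e4, ← mul_assoc, htt, div_mul_cancel₀ _ hnn.ne']
    ring
  obtain ⟨ξ, hξ⟩ := I.exists_vel H459.invThm hww
  refine ⟨ξ, ?_, ?_⟩
  · rw [nu_pos_iff I x _ hR, ← hd, hξ, hw, map_add, al_tg I x hR, zero_add, map_smul, haln,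
      smul_eq_mul, mul_one]
    exact ht0
  · refine ext_inner_right ℝ fun b => ?_
    rw [gradient_be I x ξ hR, ← hd, hξ, hGw, add_apply, smul_apply, hn1, smul_zero, add_zero,
      ha₀]
    rfl

/-- **the covectors near zero are reached, uniformly** -/
theorem exists_cov_surj {I : GeoIn L V} (hX : GeoX I) : ∃ δ > 0, ∀ x, ∀ q ∈ ball (0 : E2) 3,
    ∀ π : E2, ‖π‖ < δ → ∃ ξ, 0 < nu I x ξ q ∧ gradient (be I x ξ) q = π := by
  obtain ⟨c, hc, h⟩ := exists_gm hX
  exact ⟨Real.sqrt c, Real.sqrt_pos.2 hc, fun x q hq π hπ => exists_cov hq hc (h x q hq) hπ⟩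

/-- the constant of `Bus` -/
def dl {I : GeoIn L V} (hX : GeoX I) : ℝ := (exists_cov_surj hX).choose

theorem dl_pos {I : GeoIn L V} (hX : GeoX I) : 0 < dl hX := (exists_cov_surj hX).choose_spec.1

theorem cov_surj {I : GeoIn L V} (hX : GeoX I) : ∀ x, ∀ q ∈ ball (0 : E2) 3,
    ∀ π : E2, ‖π‖ < dl hX → ∃ ξ, 0 < nu I x ξ q ∧ gradient (be I x ξ) q = π :=
  (exists_cov_surj hX).choose_spec.2

end Vale.Agent.P207.N4.H862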